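import Vale.Agent.Lib.P159.Decay

/-!
# A power law lower bound for the correlation length of the square lattice XY model

For every `b > 0` the limits defining `C_b(r)` and `m(b)` exist, and for `0 < b < b_c` we have
`m(b) > 0` and `ξ(b) = 1 / m(b) ≥ 1 / (4 √(2 (b_c - b))) - 1 / 4`.
-/

open Filter Topology Vale.Agent.Lib.P159

/-- Existence of `C_b(r)` and `m(b)`, and the lower bound on `ξ(b) = 1 / m(b)` below `b_c`. -/
theorem Vale.Agent.Results.P159.CorrelationLengthLowerBound.result :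
    (∀ b : ℝ, 0 < b → ∀ r : ℕ,
      Tendsto (fun R : ℕ => xyExpect R b (fun θ => Real.cos (θ (0, 0) - θ ((r : ℤ), 0))))
        atTop (𝓝 (corrC b r))) ∧
    (∀ b : ℝ, 0 < b →
      Tendsto (fun r : ℕ => -(1 / (r : ℝ)) * Real.log (corrC b r)) atTop (𝓝 (mass b))) ∧
    (∀ b : ℝ, 0 < b → b < critB →
      0 < mass b ∧
        1 / (4 * Real.sqrt (2 * (critB - b))) - 1 / 4 ≤ 1 / mass b) := by
  refine ⟨?_, fun b hb => tendsto_mass hb, ?_⟩
  · intro b hb r
    rw [corrC_eq hb r]
    exact tendsto_xyExpect hb r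
  · intro b hb hbc
    obtain ⟨hm, h⟩ := main_bound hb hbc
    refine ⟨hm, ?_⟩
    have hε : 0 < 2 * (critB - b) := by linarith
    set s := Real.sqrt (2 * (critB - b)) with hs
    have hs0 : 0 < s := Real.sqrt_pos.mpr hε
    have hs2 : s ^ 2 = 2 * (critB - b) := Real.sq_sqrt hε.le
    have h1 : 1 ≤ s ^ 2 * (1 + 4 / mass b) ^ 2 := by rw [hs2]; exact h
    have h2 : 1 ≤ s * (1 + 4 / mass b) := by
      have hx : 0 < 1 + 4 / mass b := by positivity
      have h3 : (1:ℝ) ^ 2 ≤ (s * (1 + 4 / mass b)) ^ 2 := by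
        rw [mul_pow]; simpa using h1
      exact (pow_le_pow_iff_left₀ (by norm_num) (by positivity) (by norm_num)).mp h3
    have h3 : 1 / s ≤ 1 + 4 / mass b := by
      rw [div_le_iff₀ hs0]
      linarith
    have h4 : 1 / (4 * s) = (1 / s) / 4 := by
      field_simp
    have h5 : 1 / mass b = (4 / mass b) / 4 := by
      field_simp
    rw [h4, h5]
    linarith
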